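import Mathlib

/-!
# P171 bridge: from the final-statement definitions to the internal `Xi (w, psi)` shape

Local copies of the two sets of definitions (final statement: `pairEnergy`, `box`, `Zcan`;
internal layer: `wt`, `Zc`, `Xi`) and the identities connecting them.
-/

open MeasureTheory Set Filter Topology

namespace Vale.Agent.H12.P171

/-- Euclidean 3-space. -/
abbrev E3 : Type := EuclideanSpace ℝ (Fin 3)

/-! ### Final-statement definitions (copy) -/

/-- Pair energy `U_N(x) = ∑_{i<j} φ(|x_i - x_j|)`. -/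
noncomputable def pairEnergy (φ : ℝ → ℝ) (N : ℕ) (x : Fin N → EuclideanSpace ℝ (Fin 3)) : ℝ :=
  ∑ i : Fin N, ∑ j : Fin N, if i < j then φ (dist (x i) (x j)) else 0

/-- The cube `[0, L]^3`. -/
def box (L : ℝ) : Set (EuclideanSpace ℝ (Fin 3)) := {p | ∀ k, 0 ≤ p k ∧ p k ≤ L}

/-- Canonical partition function at `β = 1`. -/
noncomputable def Zcan (φ : ℝ → ℝ) (L : ℝ) (N : ℕ) : ℝ :=
  (N.factorial : ℝ)⁻¹ *
    ∫ x in {x : Fin N → EuclideanSpace ℝ (Fin 3) | ∀ i, x i ∈ box L},
      Real.exp (-pairEnergy φ N x)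

/-! ### Internal definitions (copy) -/

section Internal

variable {E : Type*} [MeasurableSpace E]

/-- Weight of a labelled configuration: one-body factors times pair factors over ordered
pairs of distinct labels. -/
noncomputable def wt (w : E → ENNReal) (psi : E → E → ENNReal) {I : Type*} [Fintype I]
    [DecidableEq I] (x : I → E) : ENNReal :=
  (∏ i, w (x i)) * ∏ i, ∏ j, if i = j then 1 else psi (x i) (x j)

/-- Configuration integral over `N` labelled points. -/
noncomputable def Zc (nu : Measure E) (w : E → ENNReal) (psi : E → E → ENNReal) (N : ℕ) :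
    ENNReal :=
  ∫⁻ x : Fin N → E, wt w psi x ∂(Measure.pi fun _ => nu)

/-- Grand partition function. -/
noncomputable def Xi (nu : Measure E) (w : E → ENNReal) (psi : E → E → ENNReal) : ENNReal :=
  ∑' N : ℕ, (N.factorial : ENNReal)⁻¹ * Zc nu w psi N

end Internal

/-! ### The bridge -/

/-- The `N`-fold box. -/
def boxN (L : ℝ) (N : ℕ) : Set (Fin N → E3) := {x | ∀ i, x i ∈ box L}

/-- One-body weight: activity `z` on the box. -/
noncomputable def wz (z L : ℝ) : E3 → ENNReal :=
  fun p => ENNReal.ofReal z * (box L).indicator 1 p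

/-- Pair weight of an ordered pair: `exp (-φ/2)`. -/
noncomputable def psiOf (φ : ℝ → ℝ) : E3 → E3 → ENNReal :=
  fun p q => ENNReal.ofReal (Real.exp (-(φ (dist p q)) / 2))

lemma boxN_eq_pi (L : ℝ) (N : ℕ) : boxN L N = Set.pi Set.univ (fun _ : Fin N => box L) := by
  ext x
  simp [boxN]

lemma isClosed_box (L : ℝ) : IsClosed (box L) := by
  have : box L = ⋂ k : Fin 3, {p : E3 | 0 ≤ p k ∧ p k ≤ L} := by
    ext p
    simp [box]
  rw [this]
  refine isClosed_iInter (fun k => ?_)
  have hc : Continuous (fun p : E3 => p k) := by fun_prop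
  exact (isClosed_le continuous_const hc).inter (isClosed_le hc continuous_const)

lemma measurableSet_box (L : ℝ) : MeasurableSet (box L) := (isClosed_box L).measurableSet

lemma measurableSet_boxN (L : ℝ) (N : ℕ) : MeasurableSet (boxN L N) := by
  rw [boxN_eq_pi]
  exact MeasurableSet.univ_pi (fun _ => measurableSet_box L)

lemma isBounded_box (L : ℝ) : Bornology.IsBounded (box L) := by
  refine (Metric.isBounded_closedBall (x := (0 : E3)) (r := 2 * |L|)).subset ?_
  intro p hp
  rw [Metric.mem_closedBall, dist_zero_right, EuclideanSpace.norm_eq]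
  refine Real.sqrt_le_iff.mpr ⟨by positivity, ?_⟩
  have h : ∀ k : Fin 3, ‖p k‖ ^ 2 ≤ L ^ 2 := by
    intro k
    obtain ⟨h0, h1⟩ := hp k
    rw [Real.norm_eq_abs, sq_abs]
    nlinarith
  calc ∑ k : Fin 3, ‖p k‖ ^ 2 ≤ ∑ _k : Fin 3, L ^ 2 := Finset.sum_le_sum (fun k _ => h k)
    _ = 3 * L ^ 2 := by simp
    _ ≤ (2 * |L|) ^ 2 := by
      have : |L| ^ 2 = L ^ 2 := sq_abs L
      nlinarith [sq_nonneg L]

lemma volume_box_lt_top (L : ℝ) : volume (box L) < ⊤ := (isBounded_box L).measure_lt_top

lemma volume_boxN (L : ℝ) (N : ℕ) : volume (boxN L N) = (volume (box L)) ^ N := by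
  rw [boxN_eq_pi, volume_pi, Measure.pi_pi]
  simp

lemma volume_boxN_lt_top (L : ℝ) (N : ℕ) : volume (boxN L N) < ⊤ := by
  rw [volume_boxN]
  exact ENNReal.pow_lt_top (volume_box_lt_top L)

/-- (BR0) Almost every labelled configuration consists of distinct points. -/
theorem ae_injective (N : ℕ) : ∀ᵐ x : Fin N → E3, Function.Injective x := by
  have hnull : ∀ i j : Fin N, i ≠ j → volume {x : Fin N → E3 | x i = x j} = 0 := by
    intro i j hij
    let S : Submodule ℝ (Fin N → E3) :=
      LinearMap.ker ((LinearMap.proj i : (Fin N → E3) →ₗ[ℝ] E3) - LinearMap.proj j)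
    have hS : (S : Set (Fin N → E3)) = {x : Fin N → E3 | x i = x j} := by
      ext x
      simp [S, sub_eq_zero]
    have hne : S ≠ ⊤ := by
      intro htop
      have hmem : (Function.update (0 : Fin N → E3) i (EuclideanSpace.single 0 (1 : ℝ)))
          ∈ (S : Set (Fin N → E3)) := by
        rw [htop]; trivial
      rw [hS] at hmem
      simp only [Set.mem_ofPred_eq, Function.update_self, Function.update_of_ne hij.symm,
        Pi.zero_apply] at hmem
      have := congrArg (fun v : E3 => v 0) hmem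
      simp at this
    rw [← hS]
    exact Measure.addHaar_submodule volume S hne
  have hunion : {x : Fin N → E3 | ¬ Function.Injective x}
      ⊆ ⋃ i : Fin N, ⋃ j : Fin N, ⋃ _h : i ≠ j, {x : Fin N → E3 | x i = x j} := by
    intro x hx
    simp only [Function.Injective, not_forall] at hx
    obtain ⟨i, j, hxe, hij⟩ := hx
    simp only [Set.mem_iUnion, Set.mem_ofPred_eq]
    exact ⟨i, j, hij, hxe⟩
  have hzero : volume (⋃ i : Fin N, ⋃ j : Fin N, ⋃ _h : i ≠ j, {x : Fin N → E3 | x i = x j})
      = 0 := by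
    simp only [measure_iUnion_null_iff]
    intro i j hij
    exact hnull i j hij
  rw [ae_iff]
  exact measure_mono_null hunion hzero

lemma measurable_pairEnergy (φ : ℝ → ℝ) (hφ : Measurable φ) (N : ℕ) :
    Measurable (fun x : Fin N → E3 => pairEnergy φ N x) := by
  unfold pairEnergy
  refine Finset.measurable_sum _ (fun i _ => Finset.measurable_sum _ (fun j _ => ?_))
  by_cases h : i < j
  · simp only [h, if_true]
    exact hφ.comp ((measurable_pi_apply i).dist (measurable_pi_apply j))
  · simp only [h, if_false]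
    exact measurable_const

lemma pair_sum_symm (N : ℕ) (a : Fin N → Fin N → ℝ) (ha : ∀ i j, a i j = a j i) :
    ∑ i, ∑ j, (if i = j then 0 else a i j / 2) = ∑ i, ∑ j, if i < j then a i j else 0 := by
  have h1 : ∀ i j : Fin N, (if i = j then 0 else a i j / 2)
      = (if i < j then a i j / 2 else 0) + (if j < i then a j i / 2 else 0) := by
    intro i j
    rcases lt_trichotomy i j with h | h | h
    · simp [h, h.ne, not_lt_of_gt h]
    · subst h; simp
    · simp [h, h.ne', not_lt_of_gt h, ha i j]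
  simp_rw [h1, Finset.sum_add_distrib]
  rw [Finset.sum_comm (f := fun i j => if j < i then a j i / 2 else 0)]
  rw [← Finset.sum_add_distrib]
  refine Finset.sum_congr rfl (fun i _ => ?_)
  rw [← Finset.sum_add_distrib]
  refine Finset.sum_congr rfl (fun j _ => ?_)
  split_ifs <;> ring

/-- (BR1) The internal weight of the pair `(wz z L, psiOf φ)` is the Boltzmann weight of the
final statement, times `z ^ N` and the indicator of the `N`-fold box. -/
theorem wt_bridge (φ : ℝ → ℝ) (z L : ℝ) (hz : 0 ≤ z) (N : ℕ) (x : Fin N → E3) :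
    wt (wz z L) (psiOf φ) x
      = ENNReal.ofReal (z ^ N) * (boxN L N).indicator 1 x
          * ENNReal.ofReal (Real.exp (-pairEnergy φ N x)) := by
  unfold wt
  have h1 : ∏ i, wz z L (x i) = ENNReal.ofReal (z ^ N) * (boxN L N).indicator 1 x := by
    simp only [wz, Finset.prod_mul_distrib, Finset.prod_const, Finset.card_univ,
      Fintype.card_fin]
    rw [ENNReal.ofReal_pow hz]
    congr 1
    by_cases hx : x ∈ boxN L N
    · rw [Set.indicator_of_mem hx]
      simp only [Pi.one_apply]
      apply Finset.prod_eq_one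
      intro i _
      rw [Set.indicator_of_mem (hx i)]
      rfl
    · rw [Set.indicator_of_notMem hx]
      have : ∃ i, x i ∉ box L := by
        by_contra hcon
        exact hx (fun i => by_contra (fun hi => hcon ⟨i, hi⟩))
      obtain ⟨i, hi⟩ := this
      exact Finset.prod_eq_zero (Finset.mem_univ i) (Set.indicator_of_notMem hi _)
  have h2 : (∏ i, ∏ j, if i = j then (1 : ENNReal) else psiOf φ (x i) (x j))
      = ENNReal.ofReal (Real.exp (-pairEnergy φ N x)) := by
    have h3 : ∀ i j : Fin N, (if i = j then (1 : ENNReal) else psiOf φ (x i) (x j))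
        = ENNReal.ofReal (Real.exp (-(if i = j then 0 else φ (dist (x i) (x j)) / 2))) := by
      intro i j
      split_ifs
      · simp
      · simp only [psiOf]
        congr 2
        ring
    simp_rw [h3]
    have h4 : ∀ i : Fin N, ∏ j : Fin N,
        ENNReal.ofReal (Real.exp (-(if i = j then 0 else φ (dist (x i) (x j)) / 2)))
        = ENNReal.ofReal (Real.exp (-∑ j : Fin N, if i = j then 0 else φ (dist (x i) (x j)) / 2))
        := by
      intro i
      rw [← ENNReal.ofReal_prod_of_nonneg (fun j _ => (Real.exp_pos _).le), ← Real.exp_sum,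
        Finset.sum_neg_distrib]
    simp_rw [h4]
    rw [← ENNReal.ofReal_prod_of_nonneg (fun j _ => (Real.exp_pos _).le), ← Real.exp_sum,
      Finset.sum_neg_distrib]
    congr 3
    exact pair_sum_symm N (fun i j => φ (dist (x i) (x j))) (fun i j => by rw [dist_comm])
  rw [h1, h2]

/-- (BR2) Stability on configurations of distinct points makes the Boltzmann factor integrable
on every `N`-fold box. -/
theorem integrableOn_boltzmann (φ : ℝ → ℝ) (hφ : Measurable φ) (B : ℝ)
    (hstab : ∀ (N : ℕ) (x : Fin N → E3), Function.Injective x → -(B * N) ≤ pairEnergy φ N x)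
    (L : ℝ) (N : ℕ) :
    IntegrableOn (fun x : Fin N → E3 => Real.exp (-pairEnergy φ N x)) (boxN L N) := by
  refine Measure.integrableOn_of_bounded (M := Real.exp (B * N)) (volume_boxN_lt_top L N).ne ?_ ?_
  · exact ((measurable_pairEnergy φ hφ N).neg.exp).aestronglyMeasurable
  · refine ae_restrict_of_ae ?_
    filter_upwards [ae_injective N] with x hx
    rw [Real.norm_eq_abs, abs_of_pos (Real.exp_pos _)]
    exact Real.exp_le_exp.mpr (by linarith [hstab N x hx])

lemma Zcan_eq (φ : ℝ → ℝ) (L : ℝ) (N : ℕ) :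
    Zcan φ L N = (N.factorial : ℝ)⁻¹ * ∫ x in boxN L N, Real.exp (-pairEnergy φ N x) := rfl

lemma Zcan_nonneg (φ : ℝ → ℝ) (L : ℝ) (N : ℕ) : 0 ≤ Zcan φ L N := by
  rw [Zcan_eq]
  exact mul_nonneg (by positivity) (integral_nonneg (fun x => (Real.exp_pos _).le))

/-- (BR3) The `N`-th term of the grand partition sum of the final statement is the `N`-th term
of the internal `Xi`. -/
theorem ofReal_Zcan (φ : ℝ → ℝ) (hφ : Measurable φ) (z L : ℝ) (hz : 0 ≤ z) (N : ℕ)
    (hint : IntegrableOn (fun x : Fin N → E3 => Real.exp (-pairEnergy φ N x)) (boxN L N)) :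
    ENNReal.ofReal (z ^ N * Zcan φ L N)
      = (N.factorial : ENNReal)⁻¹ * Zc volume (wz z L) (psiOf φ) N := by
  have hmeas : Measurable
      (fun x : Fin N → E3 => ENNReal.ofReal (Real.exp (-pairEnergy φ N x))) :=
    (measurable_pairEnergy φ hφ N).neg.exp.ennreal_ofReal
  have h1 : Zc volume (wz z L) (psiOf φ) N
      = ENNReal.ofReal (z ^ N)
          * ∫⁻ x in boxN L N, ENNReal.ofReal (Real.exp (-pairEnergy φ N x)) := by
    unfold Zc
    have hfun : (fun x : Fin N → E3 => wt (wz z L) (psiOf φ) x)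
        = fun x => ENNReal.ofReal (z ^ N) * (boxN L N).indicator
            (fun x => ENNReal.ofReal (Real.exp (-pairEnergy φ N x))) x := by
      funext x
      rw [wt_bridge φ z L hz N x, mul_assoc]
      congr 1
      by_cases hx : x ∈ boxN L N
      · simp [Set.indicator_of_mem hx]
      · simp [Set.indicator_of_notMem hx]
    rw [hfun, lintegral_const_mul _ (hmeas.indicator (measurableSet_boxN L N)),
      lintegral_indicator (measurableSet_boxN L N)]
    rfl
  have h2 : ENNReal.ofReal (∫ x in boxN L N, Real.exp (-pairEnergy φ N x))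
      = ∫⁻ x in boxN L N, ENNReal.ofReal (Real.exp (-pairEnergy φ N x)) :=
    ofReal_integral_eq_lintegral_ofReal hint (ae_of_all _ (fun x => (Real.exp_pos _).le))
  have hfac : (0 : ℝ) < (N.factorial : ℝ) := by exact_mod_cast Nat.factorial_pos N
  rw [h1, ← h2, Zcan_eq, ENNReal.ofReal_mul (pow_nonneg hz N),
    ENNReal.ofReal_mul (inv_nonneg.mpr hfac.le), ENNReal.ofReal_inv_of_pos hfac,
    ENNReal.ofReal_natCast]
  ring

/-- The `N`-th term is dominated by the exponential series. -/
lemma Zcan_term_le (φ : ℝ → ℝ) (B : ℝ)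
    (hstab : ∀ (N : ℕ) (x : Fin N → E3), Function.Injective x → -(B * N) ≤ pairEnergy φ N x)
    (z L : ℝ) (hz : 0 ≤ z) (N : ℕ) :
    z ^ N * Zcan φ L N
      ≤ (z * Real.exp B * (volume (box L)).toReal) ^ N / (N.factorial : ℝ) := by
  have hb : ‖∫ x in boxN L N, Real.exp (-pairEnergy φ N x)‖
      ≤ Real.exp (B * N) * (volume : Measure (Fin N → E3)).real (boxN L N) := by
    refine norm_setIntegral_le_of_norm_le_const_ae (volume_boxN_lt_top L N) ?_
    refine ae_restrict_of_ae ?_
    filter_upwards [ae_injective N] with x hx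
    rw [Real.norm_eq_abs, abs_of_pos (Real.exp_pos _)]
    exact Real.exp_le_exp.mpr (by linarith [hstab N x hx])
  have hreal : (volume : Measure (Fin N → E3)).real (boxN L N)
      = (volume (box L)).toReal ^ N := by
    rw [Measure.real, volume_boxN, ENNReal.toReal_pow]
  have hexp : Real.exp (B * N) = Real.exp B ^ N := by
    rw [mul_comm, Real.exp_nat_mul]
  have hI : ∫ x in boxN L N, Real.exp (-pairEnergy φ N x)
      ≤ Real.exp B ^ N * (volume (box L)).toReal ^ N := by
    have := le_trans (le_abs_self _) (by rwa [Real.norm_eq_abs] at hb)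
    rwa [hreal, hexp] at this
  have hfac : (0 : ℝ) < (N.factorial : ℝ) := by exact_mod_cast Nat.factorial_pos N
  rw [Zcan_eq, mul_pow, mul_pow, div_eq_mul_inv]
  have hzN : 0 ≤ z ^ N := pow_nonneg hz N
  have hinv : 0 ≤ (N.factorial : ℝ)⁻¹ := inv_nonneg.mpr hfac.le
  calc z ^ N * ((N.factorial : ℝ)⁻¹ * ∫ x in boxN L N, Real.exp (-pairEnergy φ N x))
      ≤ z ^ N * ((N.factorial : ℝ)⁻¹ * (Real.exp B ^ N * (volume (box L)).toReal ^ N)) :=
        mul_le_mul_of_nonneg_left (mul_le_mul_of_nonneg_left hI hinv) hzN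
    _ = z ^ N * Real.exp B ^ N * (volume (box L)).toReal ^ N * (N.factorial : ℝ)⁻¹ := by ring

/-- (BR4a) Summability of the grand partition sum of the final statement. -/
theorem summable_Zcan (φ : ℝ → ℝ) (B : ℝ)
    (hstab : ∀ (N : ℕ) (x : Fin N → E3), Function.Injective x → -(B * N) ≤ pairEnergy φ N x)
    (z L : ℝ) (hz : 0 ≤ z) :
    Summable (fun N : ℕ => z ^ N * Zcan φ L N) := by
  refine Summable.of_nonneg_of_le (fun N => mul_nonneg (pow_nonneg hz N) (Zcan_nonneg φ L N))
    (fun N => Zcan_term_le φ B hstab z L hz N) ?_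
  exact Real.summable_pow_div_factorial _

/-- (BR4b) The grand partition sum of the final statement is the internal `Xi`, which is
finite. -/
theorem tsum_Zcan (φ : ℝ → ℝ) (hφ : Measurable φ) (B : ℝ)
    (hstab : ∀ (N : ℕ) (x : Fin N → E3), Function.Injective x → -(B * N) ≤ pairEnergy φ N x)
    (z L : ℝ) (hz : 0 ≤ z) :
    Xi volume (wz z L) (psiOf φ) = ENNReal.ofReal (∑' N : ℕ, z ^ N * Zcan φ L N) := by
  rw [ENNReal.ofReal_tsum_of_nonneg
    (fun N => mul_nonneg (pow_nonneg hz N) (Zcan_nonneg φ L N))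
    (summable_Zcan φ B hstab z L hz)]
  unfold Xi
  refine tsum_congr (fun N => ?_)
  rw [ofReal_Zcan φ hφ z L hz N (integrableOn_boltzmann φ hφ B hstab L N)]

theorem Xi_lt_top (φ : ℝ → ℝ) (hφ : Measurable φ) (B : ℝ)
    (hstab : ∀ (N : ℕ) (x : Fin N → E3), Function.Injective x → -(B * N) ≤ pairEnergy φ N x)
    (z L : ℝ) (hz : 0 ≤ z) :
    Xi volume (wz z L) (psiOf φ) < ⊤ := by
  rw [tsum_Zcan φ hφ B hstab z L hz]
  exact ENNReal.ofReal_lt_top

theorem tsum_Zcan_eq_toReal (φ : ℝ → ℝ) (hφ : Measurable φ) (B : ℝ)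
    (hstab : ∀ (N : ℕ) (x : Fin N → E3), Function.Injective x → -(B * N) ≤ pairEnergy φ N x)
    (z L : ℝ) (hz : 0 ≤ z) :
    ∑' N : ℕ, z ^ N * Zcan φ L N = (Xi volume (wz z L) (psiOf φ)).toReal := by
  rw [tsum_Zcan φ hφ B hstab z L hz, ENNReal.toReal_ofReal]
  exact tsum_nonneg (fun N => mul_nonneg (pow_nonneg hz N) (Zcan_nonneg φ L N))

end Vale.Agent.H12.P171
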